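import Vale.Agent.P227.Segment

open MeasureTheory Set
open scoped Pointwise

namespace Vale.Agent.Results.P227.SegmentSum

open Vale.Agent.P227

/-- The logarithmic Brunn-Minkowski inequality holds, in every dimension and for every
`0 ≤ lam ≤ 1`, for the pair `K`, `L = K + [-v, v]`, where `K` is an arbitrary origin-symmetric
convex body and `[-v, v]` an arbitrary origin-symmetric segment. -/
theorem result (n : ℕ) (K : Set (E n)) (hK : IsSymBody K) (v : E n) (lam : ℝ)
    (h0 : 0 ≤ lam) (h1 : lam ≤ 1) :
    IsSymBody (K + segment ℝ (-v) v) ∧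
    (volume K).toReal ^ (1 - lam) * (volume (K + segment ℝ (-v) v)).toReal ^ lam ≤
      (volume (logSum K (K + segment ℝ (-v) v) lam)).toReal :=
  ⟨hK.add_segment v, logBM_add_segment hK v lam h0 h1⟩

end Vale.Agent.Results.P227.SegmentSum
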