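import Vale.Agent.P227.Segment

open MeasureTheory Set
open scoped Pointwise

namespace Vale.Agent.Results.P227.SegmentSumPlain

/-- The logarithmic Brunn-Minkowski inequality for the pairs `K`, `L = K + [-v, v]`, stated with
library notions only.  `K` is an arbitrary origin-symmetric convex body of Euclidean `n`-space
(compact, convex, nonempty interior, closed under `x ↦ -x`), `v` an arbitrary vector, and
`0 ≤ lam ≤ 1`.  Then `L` is again such a body, both volumes are positive real numbers, and the
Wulff body of `h_K ^ (1 - lam) * h_L ^ lam` has volume at least `|K| ^ (1 - lam) * |L| ^ lam`. -/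
theorem result (n : ℕ) (K : Set (EuclideanSpace ℝ (Fin n))) (hcomp : IsCompact K)
    (hconv : Convex ℝ K) (hint : (interior K).Nonempty) (hsymm : ∀ x ∈ K, -x ∈ K)
    (v : EuclideanSpace ℝ (Fin n)) (lam : ℝ) (h0 : 0 ≤ lam) (h1 : lam ≤ 1) :
    (IsCompact (K + segment ℝ (-v) v) ∧ Convex ℝ (K + segment ℝ (-v) v) ∧
      (interior (K + segment ℝ (-v) v)).Nonempty ∧
      ∀ x ∈ K + segment ℝ (-v) v, -x ∈ K + segment ℝ (-v) v) ∧
    0 < (volume K).toReal ∧ 0 < (volume (K + segment ℝ (-v) v)).toReal ∧
    (volume K).toReal ^ (1 - lam) * (volume (K + segment ℝ (-v) v)).toReal ^ lam ≤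
      (volume {x : EuclideanSpace ℝ (Fin n) | ∀ u : EuclideanSpace ℝ (Fin n), ‖u‖ = 1 →
        inner ℝ x u ≤
          sSup ((fun y : EuclideanSpace ℝ (Fin n) => inner ℝ y u) '' K) ^ (1 - lam) *
          sSup ((fun y : EuclideanSpace ℝ (Fin n) => inner ℝ y u) ''
            (K + segment ℝ (-v) v)) ^ lam}).toReal := by
  have hK : Vale.Agent.P227.IsSymBody K := ⟨hcomp, hconv, hint, hsymm⟩
  have hL := hK.add_segment v
  exact ⟨⟨hL.isCompact, hL.convex, hL.nonempty_interior, hL.neg_mem⟩,
    ENNReal.toReal_pos (Measure.measure_pos_of_nonempty_interior volume hint).ne'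
      hcomp.measure_lt_top.ne,
    ENNReal.toReal_pos (Measure.measure_pos_of_nonempty_interior volume hL.nonempty_interior).ne'
      hL.isCompact.measure_lt_top.ne,
    Vale.Agent.P227.logBM_add_segment hK v lam h0 h1⟩

end Vale.Agent.Results.P227.SegmentSumPlain
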